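import Vale.Agent.P162.Main

namespace Vale.Agent.Results.P162.Thorp

open Vale.Agent.P162

/-- The mixing time of the Thorp shuffle on `n = 2^d` cards has order exactly `d = log₂ n`. -/
theorem result : ∃ c C : ℝ, 0 < c ∧ 0 < C ∧ ∀ d : ℕ, 1 ≤ d →
    (∃ t : ℕ, tv (2 ^ d) t ≤ 1 / 4) ∧
      c * d ≤ (tmix (2 ^ d) : ℝ) ∧ (tmix (2 ^ d) : ℝ) ≤ C * d := by
  obtain ⟨C, hC, h⟩ := upper
  refine ⟨1 / 2, C, by norm_num, by exact_mod_cast hC, fun d hd => ?_⟩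
  obtain ⟨e, rfl⟩ : ∃ e, d = e + 1 := ⟨d - 1, by omega⟩
  refine ⟨⟨_, h e⟩, ?_, ?_⟩
  · have h1 : e + 1 ≤ 2 * tmix (2 ^ (e + 1)) :=
      lower e _ (Nat.sInf_mem (s := {t : ℕ | tv (2 ^ (e + 1)) t ≤ 1 / 4}) ⟨_, h e⟩)
    have h2 : ((e + 1 : ℕ) : ℝ) ≤ 2 * tmix (2 ^ (e + 1)) := by exact_mod_cast h1
    linarith
  · have h1 : tmix (2 ^ (e + 1)) ≤ (e + 1) * C := Nat.sInf_le (h e)
    rw [mul_comm]
    exact_mod_cast h1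

end Vale.Agent.Results.P162.Thorp
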